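import Vale.Agent.P216.R2.H983.Walk
import Vale.Agent.P216.H215.SFCC

/-!
# P216: checkable conditions on the fundamental group
-/

namespace Vale.Agent.P216.H983

open Set Filter Topology

variable {G : Type} [Group G]

theorem cov_of_fcc (h : FinitelyCyclicallyCovered G) : ∃ F : Finset G, Cov F := by
  classical
  obtain ⟨F, hF, hcov⟩ := h
  refine ⟨hF.toFinset ∪ hF.toFinset.image fun a => a⁻¹, fun g => ?_⟩
  obtain ⟨a, ha, k, hk⟩ := hcov g
  obtain ⟨n, hn | hn⟩ := k.eq_nat_or_neg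
  · refine ⟨a, Finset.mem_union_left _ (hF.mem_toFinset.2 ha), n, ?_⟩
    rw [hn, zpow_natCast] at hk
    exact hk
  · refine ⟨a⁻¹, Finset.mem_union_right _ (Finset.mem_image_of_mem _ (hF.mem_toFinset.2 ha)), n, ?_⟩
    rw [hn, zpow_neg, zpow_natCast, ← inv_pow] at hk
    exact hk

theorem hom_of_qm {φ : G → ℝ} (h : IsQuasimorphism φ) : IsHomogeneous φ := by
  obtain ⟨⟨D, hD⟩, hp⟩ := h
  have hinv : ∀ g, φ g⁻¹ = - φ g := fun g => by
    have := hp g (-1)
    rw [zpow_neg_one] at this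
    rw [this]
    push_cast
    ring
  have hpn : ∀ (g : G) (n : ℕ), φ (g ^ n) = n * φ g := fun g n => by
    have := hp g n
    rw [zpow_natCast] at this
    rw [this]
    push_cast
    ring
  refine ⟨fun g h => ?_, hpn⟩
  have key : ∀ n : ℕ, |(n : ℝ) * (φ (h * g * h⁻¹) - φ g)| ≤ 2 * D := by
    intro n
    have e : (h * g * h⁻¹) ^ n = h * (g ^ n * h⁻¹) := by rw [conj_pow, mul_assoc]
    have h1 := hD h (g ^ n * h⁻¹)
    have h2 := hD (g ^ n) h⁻¹
    rw [← e, hpn] at h1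
    rw [hpn, hinv] at h2
    rw [abs_le] at h1 h2 ⊢
    constructor <;> linarith [h1.1, h1.2, h2.1, h2.2]
  by_contra hne
  have hpos : 0 < |φ (h * g * h⁻¹) - φ g| := abs_pos.2 (sub_ne_zero.2 hne)
  obtain ⟨n, hn⟩ := exists_nat_gt (2 * D / |φ (h * g * h⁻¹) - φ g|)
  rw [div_lt_iff₀ hpos] at hn
  have := key n
  rw [abs_mul, Nat.abs_cast] at this
  linarith

section Len

variable {l t : G → ℝ}

theorem len_nonneg (hl : IsLength l) (g : G) : 0 ≤ l g := by
  have h1 := hl.1 1 1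
  rw [mul_one] at h1
  have h2 := hl.1 g g⁻¹
  rw [mul_inv_cancel, hl.2] at h2
  linarith

theorem st_nonneg (hl : IsLength l) (ht : IsStableLength l t) (g : G) : 0 ≤ t g :=
  ge_of_tendsto' (ht g) fun n => div_nonneg (len_nonneg hl _) (Nat.cast_nonneg n)

theorem st_pow (ht : IsStableLength l t) (g : G) (m : ℕ) : t (g ^ m) = m * t g := by
  rcases Nat.eq_zero_or_pos m with h | h
  · subst h
    have h1 := ht (g ^ 0)
    simp only [pow_zero, one_pow] at h1
    have h2 : Tendsto (fun n : ℕ => l 1 / n) atTop (𝓝 0) :=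
      tendsto_const_div_atTop_nhds_zero_nat (l 1)
    rw [pow_zero, tendsto_nhds_unique h1 h2]
    simp
  · have h1 : Tendsto (fun n : ℕ => m * n) atTop atTop :=
      tendsto_id.const_mul_atTop' h
    have h2 := ((ht g).comp h1).const_mul (m : ℝ)
    refine tendsto_nhds_unique (ht (g ^ m)) (h2.congr' ?_)
    filter_upwards [eventually_gt_atTop 0] with n hn
    have hm' : (m : ℝ) ≠ 0 := by exact_mod_cast h.ne'
    have hn' : (n : ℝ) ≠ 0 := by exact_mod_cast hn.ne'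
    simp only [Function.comp]
    rw [← pow_mul]
    push_cast
    field_simp

theorem st_conj_le (hl : IsLength l) (ht : IsStableLength l t) (g h : G) :
    t (h * g * h⁻¹) ≤ t g := by
  have h2 : Tendsto (fun n : ℕ => l (g ^ n) / n + (l h + l h) / n) atTop (𝓝 (t g + 0)) :=
    (ht g).add (tendsto_const_div_atTop_nhds_zero_nat (l h + l h))
  rw [add_zero] at h2
  refine le_of_tendsto_of_tendsto' (ht _) h2 fun n => ?_
  rw [← add_div]
  refine div_le_div_of_nonneg_right ?_ (Nat.cast_nonneg n)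
  have h3 := hl.1 (h * g ^ n) h⁻¹
  have h4 := hl.1 h (g ^ n)
  rw [hl.2] at h3
  rw [conj_pow]
  linarith

theorem st_hom (hl : IsLength l) (ht : IsStableLength l t) : IsHomogeneous t := by
  refine ⟨fun g h => le_antisymm (st_conj_le hl ht g h) ?_, fun g n => st_pow ht g n⟩
  have := st_conj_le hl ht (h * g * h⁻¹) h⁻¹
  have e : h⁻¹ * (h * g * h⁻¹) * h⁻¹⁻¹ = g := by group
  rwa [e] at this

theorem st_inv (hl : IsLength l) (ht : IsStableLength l t) (g : G) : t g⁻¹ = t g := by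
  refine tendsto_nhds_unique (ht g⁻¹) ((ht g).congr fun n => ?_)
  rw [inv_pow, hl.2]

theorem st_comm (hl : IsLength l) (ht : IsStableLength l t) {g h : G} (hc : g * h = h * g) :
    t (g * h) ≤ t g + t h := by
  refine le_of_tendsto_of_tendsto' (ht _) ((ht g).add (ht h)) fun n => ?_
  rw [← add_div]
  refine div_le_div_of_nonneg_right ?_ (Nat.cast_nonneg n)
  rw [(show Commute g h from hc).mul_pow]
  exact hl.1 _ _

end Len

theorem coarse {F : Finset G} (hF : Cov F) {f₁ f₂ : G → ℝ} {g h : G} {D : ℝ}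
    (hf₁ : IsHomogeneous f₁) (hf₂ : IsHomogeneous f₂)
    (hD : ∀ p q : ℕ, |f₁ (g ^ p * h ^ q) - (p * f₁ g + q * f₁ h)| ≤ D ∧
      |f₂ (g ^ p * h ^ q) - (p * f₂ g + q * f₂ h)| ≤ D) : f₁ g * f₂ h = f₂ g * f₁ h := by
  have hD0 : 0 ≤ D := (abs_nonneg _).trans (hD 0 0).1
  set D' := 2 * D + (|f₁ g| + |f₁ h| + |f₂ g| + |f₂ h|) with hD'
  have a1 := abs_nonneg (f₁ g)
  have a2 := abs_nonneg (f₁ h)
  have a3 := abs_nonneg (f₂ g)
  have a4 := abs_nonneg (f₂ h)
  refine walk hF hf₁ hf₂ (fun n i => g ^ (n - i) * h ^ i) (D := D') (s := 1) (by linarith)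
    (Or.inl rfl) (fun n => ?_) (fun n => ?_) (fun n i hi => ?_) (fun n i hi => ?_)
  · simp [hf₁.2, hf₂.2]
  · simp [hf₁.2, hf₂.2]
  · have h1 := hD (n - i) i
    have h2 := hD (n - (i + 1)) (i + 1)
    have e : ((n - i : ℕ) : ℝ) = ((n - (i + 1) : ℕ) : ℝ) + 1 := by
      have : n - i = n - (i + 1) + 1 := by omega
      rw [this]; push_cast; ring
    rw [e] at h1
    push_cast at h1 h2 ⊢
    have b1 := abs_le.1 (le_refl |f₁ g|)
    have b2 := abs_le.1 (le_refl |f₁ h|)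
    have b3 := abs_le.1 (le_refl |f₂ g|)
    have b4 := abs_le.1 (le_refl |f₂ h|)
    have c1 := abs_le.1 h1.1
    have c2 := abs_le.1 h1.2
    have c3 := abs_le.1 h2.1
    have c4 := abs_le.1 h2.2
    simp only [abs_le]
    refine ⟨⟨?_, ?_⟩, ⟨?_, ?_⟩⟩
    · linarith [b1.1, b1.2, b2.1, b2.2, c1.1, c1.2, c3.1, c3.2]
    · linarith [b1.1, b1.2, b2.1, b2.2, c1.1, c1.2, c3.1, c3.2]
    · linarith [b3.1, b3.2, b4.1, b4.2, c2.1, c2.2, c4.1, c4.2]
    · linarith [b3.1, b3.2, b4.1, b4.2, c2.1, c2.2, c4.1, c4.2]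
  · have h1 := hD (n - i) i
    rw [Nat.cast_sub hi] at h1
    have c1 := abs_le.1 h1.1
    have c2 := abs_le.1 h1.2
    have d1 := neg_abs_le (f₁ (g ^ (n - i) * h ^ i))
    have d2 := le_abs_self (f₁ (g ^ (n - i) * h ^ i))
    have d3 := neg_abs_le (f₂ (g ^ (n - i) * h ^ i))
    have d4 := le_abs_self (f₂ (g ^ (n - i) * h ^ i))
    simp only [one_mul]
    refine ⟨abs_le.2 ⟨?_, ?_⟩, abs_le.2 ⟨?_, ?_⟩⟩ <;> linarith [c1.1, c1.2, c2.1, c2.2]

theorem commuting {F : Finset G} (hF : Cov F) {l₁ l₂ t₁ t₂ : G → ℝ} {x y : G}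
    (hl₁ : IsLength l₁) (hl₂ : IsLength l₂) (ht₁ : IsStableLength l₁ t₁)
    (ht₂ : IsStableLength l₂ t₂) (hc : x * y = y * x) : t₁ x * t₂ y = t₂ x * t₁ y := by
  have gen : ∀ {l t : G → ℝ}, IsLength l → IsStableLength l t → ∀ p q : ℕ,
      |(p : ℝ) * t x + -1 * q * t y| ≤ t (x ^ p * y ^ q) ∧
      |t (x ^ (p + 1) * y ^ q) - t (x ^ p * y ^ (q + 1))| ≤ t x + t y := by
    intro l t hl ht p q
    have cxy : Commute x y := hc
    have sub : ∀ a b : G, Commute a b → |t (a * b) - t a| ≤ t b := by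
      intro a b hab
      have h1 := st_comm hl ht hab.eq
      have h2 := st_comm hl ht (g := a * b) (h := b⁻¹)
        (((hab.mul_left (Commute.refl b)).inv_right).eq)
      rw [mul_inv_cancel_right, st_inv hl ht] at h2
      exact abs_le.2 ⟨by linarith, by linarith⟩
    constructor
    · have h1 := sub (x ^ p) (y ^ q) (cxy.pow_pow p q)
      have h2 := sub (y ^ q) (x ^ p) (cxy.symm.pow_pow q p)
      rw [← (cxy.pow_pow p q).eq] at h2
      rw [st_pow ht, st_pow ht] at h1 h2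
      have c1 := abs_le.1 h1
      have c2 := abs_le.1 h2
      exact abs_le.2 ⟨by linarith [c2.1, c2.2], by linarith [c1.1, c1.2]⟩
    · have h1 := sub (x ^ p * y ^ q) x
        (((Commute.refl x).pow_left p).mul_left (cxy.symm.pow_left q))
      have h2 := sub (x ^ p * y ^ q) y ((cxy.pow_left p).mul_left ((Commute.refl y).pow_left q))
      have e1 : x ^ p * y ^ q * x = x ^ (p + 1) * y ^ q := by
        rw [mul_assoc, (cxy.symm.pow_left q).eq, ← mul_assoc, pow_succ]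
      have e2 : x ^ p * y ^ q * y = x ^ p * y ^ (q + 1) := by
        rw [mul_assoc, pow_succ]
      rw [e1] at h1
      rw [e2] at h2
      have c1 := abs_le.1 h1
      have c2 := abs_le.1 h2
      exact abs_le.2 ⟨by linarith [c1.1, c2.2], by linarith [c1.2, c2.1]⟩
  have n1 := st_nonneg hl₁ ht₁
  have n2 := st_nonneg hl₂ ht₂
  have e := walk hF (st_hom hl₁ ht₁) (st_hom hl₂ ht₂) (fun n i => x ^ (n - i) * y ^ i)
    (u₁ := t₁ x) (u₂ := t₂ x) (v₁ := t₁ y) (v₂ := t₂ y)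
    (D := t₁ x + t₁ y + (t₂ x + t₂ y)) (s := -1)
    (by linarith [n1 x, n1 y, n2 x, n2 y]) (Or.inr rfl) (fun n => ?_) (fun n => ?_)
    (fun n i hi => ?_) (fun n i hi => ?_)
  · exact e
  · simp [st_pow ht₁, st_pow ht₂]
  · simp [st_pow ht₁, st_pow ht₂]
  · have e : n - i = n - (i + 1) + 1 := by omega
    have h1 := (gen hl₁ ht₁ (n - (i + 1)) i).2
    have h2 := (gen hl₂ ht₂ (n - (i + 1)) i).2
    rw [← e] at h1 h2
    exact ⟨by linarith [n2 x, n2 y], by linarith [n1 x, n1 y]⟩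
  · have h1 := (gen hl₁ ht₁ (n - i) i).1
    have h2 := (gen hl₂ ht₂ (n - i) i).1
    rw [Nat.cast_sub hi] at h1 h2
    refine ⟨?_, ?_⟩
    · have := le_abs_self (t₁ (x ^ (n - i) * y ^ i))
      linarith [n1 x, n1 y, n2 x, n2 y]
    · have := le_abs_self (t₂ (x ^ (n - i) * y ^ i))
      linarith [n1 x, n1 y, n2 x, n2 y]

theorem level {F : Finset G} (hF : Cov F) {f : G → ℝ} (hf : IsHomogeneous f) (C : ℝ) :
    {c : ConjClasses G | ∃ g, ConjClasses.mk g = c ∧ 0 < |f g| ∧ |f g| ≤ C}.Finite := by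
  classical
  refine ((F.finite_toSet.biUnion fun a _ =>
    (Set.finite_Iic ⌊C / |f a|⌋₊).image fun k : ℕ => ConjClasses.mk (a ^ k))).subset ?_
  rintro _ ⟨g, rfl, h1, h2⟩
  obtain ⟨a, ha, k, hk⟩ := hF g
  refine mem_iUnion₂.2 ⟨a, ha, k, ?_, (ConjClasses.mk_eq_mk_iff_isConj.2 hk).symm⟩
  rw [hom_conj hf hk, hf.2, abs_mul, Nat.abs_cast] at h1 h2
  have h3 : 0 < |f a| := by
    rcases (abs_nonneg (f a)).eq_or_lt with h | h
    · rw [← h, mul_zero] at h1
      exact absurd h1 (lt_irrefl 0)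
    · exact h
  exact Nat.le_floor ((le_div_iff₀ h3).2 h2)

theorem torsion {F : Finset G} (hF : Cov F) :
    {c : ConjClasses G | ∃ g, ConjClasses.mk g = c ∧ IsOfFinOrder g}.Finite := by
  classical
  have h1 : ∀ a ∈ (F : Set G), ({z : G | IsOfFinOrder z ∧ ∃ k : ℕ, z = a ^ k}).Finite := by
    intro a _
    by_cases ha : IsOfFinOrder a
    · refine (finite_powers.2 ha).subset ?_
      rintro z ⟨-, k, rfl⟩
      exact ⟨k, rfl⟩
    · refine (Set.finite_singleton (1 : G)).subset ?_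
      rintro z ⟨hz, k, rfl⟩
      rcases Nat.eq_zero_or_pos k with h | h
      · rw [h, pow_zero]; rfl
      · exact absurd ((isOfFinOrder_pow.1 hz).resolve_right h.ne') ha
  refine ((F.finite_toSet.biUnion fun a ha => (h1 a ha).image ConjClasses.mk)).subset ?_
  rintro _ ⟨g, rfl, hg⟩
  obtain ⟨a, ha, k, hk⟩ := hF g
  refine mem_iUnion₂.2 ⟨a, ha, a ^ k, ⟨?_, k, rfl⟩, (ConjClasses.mk_eq_mk_iff_isConj.2 hk).symm⟩
  obtain ⟨u, hu⟩ := isConj_iff.1 hk
  rw [← hu]
  exact (isOfFinOrder_iff_pow_eq_one.2 (by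
    obtain ⟨n, hn, h⟩ := isOfFinOrder_iff_pow_eq_one.1 hg
    exact ⟨n, hn, by rw [conj_pow, h]; simp⟩))

theorem level_card {F : Finset G} (hF : Cov F) {f : G → ℝ} (hf : IsHomogeneous f) {r : ℝ}
    (hr : r ≠ 0) :
    {c : ConjClasses G | ∃ g, ConjClasses.mk g = c ∧ f g = r}.encard ≤ F.card := by
  classical
  have hex : ∀ a : G, ∃ c₀ : ConjClasses G, ∀ k : ℕ, k * f a = r → ConjClasses.mk (a ^ k) = c₀ := by
    intro a
    by_cases h : ∃ k : ℕ, k * f a = r
    · obtain ⟨k₀, hk₀⟩ := h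
      refine ⟨ConjClasses.mk (a ^ k₀), fun k hk => ?_⟩
      have ha : f a ≠ 0 := by
        rintro h0
        rw [h0, mul_zero] at hk₀
        exact hr hk₀.symm
      have : (k : ℝ) = k₀ := mul_right_cancel₀ ha (hk.trans hk₀.symm)
      rw [show k = k₀ by exact_mod_cast this]
    · exact ⟨ConjClasses.mk a, fun k hk => absurd ⟨k, hk⟩ h⟩
  choose c₀ hc₀ using hex
  have hsub : {c : ConjClasses G | ∃ g, ConjClasses.mk g = c ∧ f g = r} ⊆
      ((F.image c₀ : Finset (ConjClasses G)) : Set (ConjClasses G)) := by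
    rintro _ ⟨g, rfl, hg⟩
    obtain ⟨a, ha, k, hk⟩ := hF g
    rw [hom_conj hf hk, hf.2] at hg
    rw [ConjClasses.mk_eq_mk_iff_isConj.2 hk, hc₀ a k hg]
    exact Finset.mem_coe.2 (Finset.mem_image_of_mem _ ha)
  refine (Set.encard_le_encard hsub).trans ?_
  rw [Set.encard_coe_eq_coe_finsetCard]
  exact_mod_cast Finset.card_image_le

theorem fcc_quot {Q : Type} [Group Q] (h : FinitelyCyclicallyCovered G) (π : G →* Q)
    (hπ : Function.Surjective π) : FinitelyCyclicallyCovered Q := by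
  obtain ⟨F, hF, hcov⟩ := h
  refine ⟨π '' F, hF.image _, fun q => ?_⟩
  obtain ⟨g, rfl⟩ := hπ q
  obtain ⟨a, ha, k, hk⟩ := hcov g
  refine ⟨π a, ⟨a, ha, rfl⟩, k, ?_⟩
  rw [← map_zpow]
  exact π.map_isConj hk

theorem not_rich (h : FinitelyCyclicallyCovered G) : ¬ Rich G := by
  obtain ⟨F, hF⟩ := cov_of_fcc h
  rintro (⟨φ, ψ, h1, h2, h3⟩ | ⟨l₁, l₂, t₁, t₂, x, y, h1, h2, h3, h4, h5, h6⟩ |
    ⟨f₁, f₂, g, h, D, h1, h2, h3, h4⟩ | ⟨f, C, h1, h2⟩ | h1 | h1)
  · have key : ∀ g h : G, φ g * ψ h = ψ g * φ h := by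
      intro g h
      obtain ⟨D₁, hD₁⟩ := h1.1
      obtain ⟨D₂, hD₂⟩ := h2.1
      refine coarse hF (D := max D₁ D₂) (hom_of_qm h1) (hom_of_qm h2) fun p q => ⟨?_, ?_⟩
      · have := hD₁ (g ^ p) (h ^ q)
        rw [(hom_of_qm h1).2, (hom_of_qm h1).2, sub_sub] at this
        exact this.trans (le_max_left _ _)
      · have := hD₂ (g ^ p) (h ^ q)
        rw [(hom_of_qm h2).2, (hom_of_qm h2).2, sub_sub] at this
        exact this.trans (le_max_right _ _)
    rw [LinearIndependent.pair_iff] at h3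
    by_cases hψ : ∃ h, ψ h ≠ 0
    · obtain ⟨h, hh⟩ := hψ
      have := (h3 (ψ h) (-φ h) (by
        funext g
        simp only [Pi.add_apply, Pi.smul_apply, smul_eq_mul, Pi.zero_apply]
        linarith [key g h])).1
      exact hh this
    · push Not at hψ
      have := (h3 0 1 (by
        funext g
        simp [hψ g])).2
      exact one_ne_zero this
  · exact h6 (by rw [commuting hF h1 h2 h3 h4 h5]; ring)
  · exact h4 (by rw [coarse hF h1 h2 h3]; ring)
  · exact h2 (level hF h1 C)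
  · obtain ⟨f, r, h2, h3, h4⟩ := h1 F.card
    exact absurd (level_card hF h2 h3) (not_le.2 h4)
  · exact h1 (torsion hF)

theorem not_superlinear (h : StronglyFinitelyCyclicallyCovered G) :
    ¬ SuperlinearConjugacyGrowth G := by
  classical
  obtain ⟨F, lam, hF, hsub, hcov⟩ := h
  rintro ⟨S, -, hS⟩
  set Λ : ℝ := |lam 1| + ∑ s ∈ S, (|lam s| + |lam s⁻¹|) with hΛ
  have hΛ0 : 0 ≤ Λ := by positivity
  have hs : ∀ x : G, x ∈ S ∨ x⁻¹ ∈ S → lam x ≤ Λ := by
    intro x hx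
    have hp : 0 ≤ |lam 1| := abs_nonneg _
    rcases hx with hx | hx
    · have := Finset.single_le_sum (f := fun s => |lam s| + |lam s⁻¹|)
        (fun _ _ => by positivity) hx
      have h1 := le_abs_self (lam x)
      have h2 := abs_nonneg (lam x⁻¹)
      linarith
    · have := Finset.single_le_sum (f := fun s => |lam s| + |lam s⁻¹|)
        (fun _ _ => by positivity) hx
      have h1 := le_abs_self (lam x)
      have h2 := abs_nonneg (lam x⁻¹)
      simp only [inv_inv] at this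
      linarith
  have hw : ∀ w : List G, (∀ x ∈ w, x ∈ S ∨ x⁻¹ ∈ S) → lam w.prod ≤ Λ * (w.length + 1) := by
    intro w
    induction w with
    | nil =>
      intro _
      have h1 := le_abs_self (lam 1)
      have h2 : 0 ≤ ∑ s ∈ S, (|lam s| + |lam s⁻¹|) := by positivity
      simp only [List.prod_nil, List.length_nil, Nat.cast_zero, zero_add, mul_one]
      linarith
    | cons a w ih =>
      intro hw
      have h1 := ih fun x hx => hw x (by simp [hx])
      have h2 := hs a (hw a (by simp))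
      have h3 := hsub a w.prod
      rw [List.prod_cons, List.length_cons]
      push_cast
      linarith
  obtain ⟨n, hn⟩ := hS (hF.toFinset.card * (2 * Λ + 1))
  have hsubset : classesOfBall S n ⊆ ((hF.toFinset ×ˢ
      Finset.Icc (-(⌊Λ * (n + 1)⌋₊ : ℤ)) ⌊Λ * (n + 1)⌋₊).image
        fun q => ConjClasses.mk (q.1 ^ q.2) : Finset (ConjClasses G)) := by
    rintro _ ⟨w, hwn, hwS, rfl⟩
    obtain ⟨a, ha, k, hk, hc⟩ := hcov w.prod
    rw [Finset.coe_image]
    refine ⟨(a, k), ?_, (ConjClasses.mk_eq_mk_iff_isConj.2 hc).symm⟩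
    have h1 : |(k : ℝ)| ≤ Λ * (n + 1) := by
      refine hk.trans ((hw w hwS).trans ?_)
      have : (w.length : ℝ) ≤ n := by exact_mod_cast hwn
      gcongr
    have h2 : k.natAbs ≤ ⌊Λ * (n + 1)⌋₊ := by
      refine Nat.le_floor ?_
      rw [← Int.cast_natCast, Int.natCast_natAbs, Int.cast_abs]
      exact h1
    rw [Finset.mem_coe, Finset.mem_product]
    refine ⟨hF.mem_toFinset.2 ha, Finset.mem_Icc.2 ⟨?_, ?_⟩⟩ <;> simp only <;> omega
  have hcard : (classesOfBall S n).ncard ≤ hF.toFinset.card * (2 * ⌊Λ * (n + 1)⌋₊ + 1) := by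
    refine (Set.ncard_le_ncard hsubset (Finset.finite_toSet _)).trans ?_
    rw [Set.ncard_coe_finset]
    refine Finset.card_image_le.trans ?_
    rw [Finset.card_product, Int.card_Icc]
    refine Nat.mul_le_mul_left _ ?_
    omega
  have h1 : ((classesOfBall S n).ncard : ℝ) ≤
      hF.toFinset.card * (2 * (⌊Λ * (n + 1)⌋₊ : ℝ) + 1) := by exact_mod_cast hcard
  have h2 : (⌊Λ * (n + 1)⌋₊ : ℝ) ≤ Λ * (n + 1) := Nat.floor_le (by positivity)
  have h3 : (0 : ℝ) ≤ hF.toFinset.card := Nat.cast_nonneg _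
  have h4 : (hF.toFinset.card : ℝ) * (2 * (⌊Λ * (n + 1)⌋₊ : ℝ) + 1) ≤
      hF.toFinset.card * (2 * (Λ * (n + 1)) + 1) := by gcongr
  have h5 : (hF.toFinset.card : ℝ) * (2 * (Λ * (n + 1)) + 1) ≤
      hF.toFinset.card * (2 * Λ + 1) * (n + 1) := by
    have : (0 : ℝ) ≤ hF.toFinset.card * n := by positivity
    nlinarith
  linarith

end Vale.Agent.P216.H983
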