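import Mathlib

/-!
# P216: quasimorphisms, stable lengths, conjugacy growth (notions of the statement)
-/

namespace Vale.Agent.P216.H983

variable {G : Type} [Group G]

/-- homogeneous class function: invariant under conjugation and `f (g ^ n) = n * f g`, `n ≥ 0` -/
def IsHomogeneous (f : G → ℝ) : Prop :=
  (∀ g h : G, f (h * g * h⁻¹) = f g) ∧ ∀ (g : G) (n : ℕ), f (g ^ n) = n * f g

/-- homogeneous quasimorphism -/
def IsQuasimorphism (f : G → ℝ) : Prop :=
  (∃ D : ℝ, ∀ g h : G, |f (g * h) - f g - f h| ≤ D) ∧ ∀ (g : G) (n : ℤ), f (g ^ n) = n * f g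

/-- length function: `ℓ (g * h) ≤ ℓ g + ℓ h` and `ℓ g⁻¹ = ℓ g`, for instance `dist p (g • p)` for
an isometric action of `G` on a metric space -/
def IsLength (l : G → ℝ) : Prop :=
  (∀ g h : G, l (g * h) ≤ l g + l h) ∧ ∀ g : G, l g⁻¹ = l g

/-- the stable length: `τ` is the limit of `ℓ (g ^ n) / n` -/
def IsStableLength (l t : G → ℝ) : Prop :=
  ∀ g : G, Filter.Tendsto (fun n : ℕ => l (g ^ n) / n) Filter.atTop (nhds (t g))

/-- the conjugacy classes of products of at most `n` elements of `S` or inverses -/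
def classesOfBall (S : Finset G) (n : ℕ) : Set (ConjClasses G) :=
  {c | ∃ w : List G, w.length ≤ n ∧ (∀ x ∈ w, x ∈ S ∨ x⁻¹ ∈ S) ∧ ConjClasses.mk w.prod = c}

/-- one of: (1) two linearly independent homogeneous quasimorphisms; (2) two stable lengths, not
proportional on two commuting elements; (3) two homogeneous class functions, not proportional on
`g, h`, coarsely additive along `g ^ p * h ^ q`; (4) a homogeneous class function with infinitely
many conjugacy classes in `0 < |f| ≤ C`; (5) homogeneous class functions with more and more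
conjugacy classes in a level set `f = c ≠ 0`; (6) infinitely many conjugacy classes of finite
order -/
def Rich (G : Type) [Group G] : Prop :=
  (∃ φ ψ : G → ℝ, IsQuasimorphism φ ∧ IsQuasimorphism ψ ∧ LinearIndependent ℝ ![φ, ψ]) ∨
  (∃ (l₁ l₂ t₁ t₂ : G → ℝ) (x y : G), IsLength l₁ ∧ IsLength l₂ ∧ IsStableLength l₁ t₁ ∧
    IsStableLength l₂ t₂ ∧ x * y = y * x ∧ t₁ x * t₂ y ≠ t₁ y * t₂ x) ∨
  (∃ (f₁ f₂ : G → ℝ) (g h : G) (D : ℝ), IsHomogeneous f₁ ∧ IsHomogeneous f₂ ∧
    (∀ p q : ℕ, |f₁ (g ^ p * h ^ q) - (p * f₁ g + q * f₁ h)| ≤ D ∧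
      |f₂ (g ^ p * h ^ q) - (p * f₂ g + q * f₂ h)| ≤ D) ∧ f₁ g * f₂ h ≠ f₁ h * f₂ g) ∨
  (∃ (f : G → ℝ) (C : ℝ), IsHomogeneous f ∧
    {c : ConjClasses G | ∃ g, ConjClasses.mk g = c ∧ 0 < |f g| ∧ |f g| ≤ C}.Infinite) ∨
  (∀ N : ℕ, ∃ (f : G → ℝ) (r : ℝ), IsHomogeneous f ∧ r ≠ 0 ∧
    N < {c : ConjClasses G | ∃ g, ConjClasses.mk g = c ∧ f g = r}.encard) ∨
  {c : ConjClasses G | ∃ g, ConjClasses.mk g = c ∧ IsOfFinOrder g}.Infinite

/-- `G` acts by isometries on a metric space `Y` and two elements act on an isometrically embedded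
strictly convex normed space (for instance a Euclidean plane) by linearly independent
translations -/
def HasPeriodicFlat (G : Type) [Group G] : Prop :=
  ∃ (Y : Type) (_ : MetricSpace Y) (_ : MulAction G Y) (_ : IsIsometricSMul G Y)
    (V : Type) (_ : NormedAddCommGroup V) (_ : NormedSpace ℝ V) (_ : StrictConvexSpace ℝ V)
    (i : V → Y) (u v : V) (x y : G), Isometry i ∧ LinearIndependent ℝ ![u, v] ∧
      (∀ e : V, x • i e = i (e + u)) ∧ ∀ e : V, y • i e = i (e + v)

/-- some homogeneous class function is strictly convex with bounded increments along a sequence -/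
def HasConvexSequence (G : Type) [Group G] : Prop :=
  ∃ (f : G → ℝ) (w : ℕ → G) (C : ℝ), IsHomogeneous f ∧
    ∀ n : ℕ, f (w (n + 1)) - f (w n) < f (w (n + 2)) - f (w (n + 1)) ∧
      f (w (n + 1)) - f (w n) ≤ C

/-- conjugacy growth that is not linear, for a finite generating set -/
def SuperlinearConjugacyGrowth (G : Type) [Group G] : Prop :=
  ∃ S : Finset G, Subgroup.closure (S : Set G) = ⊤ ∧
    ∀ C : ℝ, ∃ n : ℕ, C * (n + 1) < (classesOfBall S n).ncard

end Vale.Agent.P216.H983
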