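import Vale.Agent.P216.R2.H983.Crit
import Vale.Agent.P216.R2.H842.Flat

/-!
# P216: closed geodesics, quasimorphisms, stable lengths, periodic flats and conjugacy growth
-/

open Bundle Manifold
open scoped ContDiff

namespace Vale.Agent.P216.H983

variable {E : Type} [NormedAddCommGroup E] [NormedSpace ℝ E] [FiniteDimensional ℝ E]
  {M : Type} [MetricSpace M] [CompactSpace M] [ChartedSpace E M] [IsManifold 𝓘(ℝ, E) ∞ M]
  [RiemannianBundle (fun x : M => TangentSpace 𝓘(ℝ, E) x)]
  [IsContMDiffRiemannianBundle 𝓘(ℝ, E) ∞ E (fun x : M => TangentSpace 𝓘(ℝ, E) x)]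
  [IsRiemannianManifold 𝓘(ℝ, E) M]

variable (E) in
include E in
theorem main (x₀ : M)
    (h : (∃ (H : Subgroup (FundamentalGroup M x₀)) (Q : Type) (_ : Group Q) (r : H →* Q),
        H.FiniteIndex ∧ Function.Surjective r ∧
          (Rich Q ∨ HasPeriodicFlat Q ∨ HasConvexSequence Q)) ∨
      SuperlinearConjugacyGrowth (FundamentalGroup M x₀)) :
    (primeClosedGeodesicImages M).Infinite := by
  by_contra hinf
  rw [Set.not_infinite] at hinf
  rcases h with ⟨H, Q, _, r, hH, hr, hR⟩ | h
  · have hQ := fcc_quot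
      ((finitelyCyclicallyCovered_fundamentalGroup E M x₀ hinf).subgroup H) r hr
    obtain ⟨F, hF⟩ := cov_of_fcc hQ
    rcases hR with hR | hR | hR
    · exact not_rich hQ hR
    · exact R2.H842.C.not_flat hF hR
    · exact R2.H842.C.not_convex hF hR
  · exact not_superlinear (stronglyFinitelyCyclicallyCovered_fundamentalGroup E M x₀ hinf) h

end Vale.Agent.P216.H983
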