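import Vale.Agent.P216.R2.H983.Defs

/-!
# P216: class functions on groups covered by conjugates of finitely many cyclic subgroups
-/

namespace Vale.Agent.P216.H983

open Set

variable {G : Type} [Group G]

/-- every element is conjugate to a nonnegative power of one of the elements of `F` -/
def Cov (F : Finset G) : Prop := ∀ g : G, ∃ a ∈ F, ∃ k : ℕ, IsConj g (a ^ k)

theorem hom_conj {f : G → ℝ} (hf : IsHomogeneous f) {g h : G} (H : IsConj g h) : f g = f h := by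
  obtain ⟨u, rfl⟩ := isConj_iff.1 H
  exact (hf.1 g u).symm

/-- the walk lemma: bounded steps between two different lines pass near the origin -/
theorem walk {F : Finset G} (hF : Cov F) {f₁ f₂ : G → ℝ} (hf₁ : IsHomogeneous f₁)
    (hf₂ : IsHomogeneous f₂) (w : ℕ → ℕ → G) {u₁ u₂ v₁ v₂ D s : ℝ} (hD : 0 ≤ D)
    (hs : s = 1 ∨ s = -1)
    (h0 : ∀ n : ℕ, f₁ (w n 0) = n * u₁ ∧ f₂ (w n 0) = n * u₂)
    (hn : ∀ n : ℕ, f₁ (w n n) = n * v₁ ∧ f₂ (w n n) = n * v₂)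
    (hstep : ∀ n i : ℕ, i < n → |f₁ (w n i) - f₁ (w n (i + 1))| ≤ D ∧
      |f₂ (w n i) - f₂ (w n (i + 1))| ≤ D)
    (hlow : ∀ n i : ℕ, i ≤ n → |((n : ℝ) - i) * u₁ + s * i * v₁| ≤ |f₁ (w n i)| + D ∧
      |((n : ℝ) - i) * u₂ + s * i * v₂| ≤ |f₂ (w n i)| + D) :
    u₁ * v₂ = u₂ * v₁ := by
  by_contra hne
  set Δ := u₁ * v₂ - u₂ * v₁ with hΔ
  have hΔ0 : 0 < |Δ| := abs_pos.2 (sub_ne_zero.2 hne)
  -- the multiple of `u` at a crossing is bounded
  set C₀ : ℝ := ∑ b ∈ F, D * (|f₁ b| + |f₂ b|) / |u₁ * f₂ b - u₂ * f₁ b| with hC₀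
  have hC₀0 : 0 ≤ C₀ := Finset.sum_nonneg fun b _ => by positivity
  have hcross : ∀ n : ℕ, 0 < n → ∃ i ≤ n, ∃ t : ℝ, |t| ≤ C₀ ∧ f₁ (w n i) = t * u₁ ∧
      f₂ (w n i) = t * u₂ := by
    intro n hn0
    classical
    -- last index before leaving the line of `u`
    have hex : ∃ i : ℕ, u₁ * f₂ (w n i) - u₂ * f₁ (w n i) ≠ 0 ∧ i ≤ n := by
      refine ⟨n, ?_, le_rfl⟩
      rw [(hn n).1, (hn n).2]
      have : u₁ * (n * v₂) - u₂ * (n * v₁) = n * Δ := by rw [hΔ]; ring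
      rw [this]
      have hn' : (n : ℝ) ≠ 0 := by exact_mod_cast hn0.ne'
      exact mul_ne_zero hn' (abs_pos.1 hΔ0)
    obtain ⟨h1, h2⟩ := Nat.find_spec hex
    set j := Nat.find hex with hj
    have hj0 : j ≠ 0 := by
      intro h
      apply h1
      rw [h, (h0 n).1, (h0 n).2]
      ring
    obtain ⟨i, hi⟩ := Nat.exists_eq_succ_of_ne_zero hj0
    have hij : i < j := by omega
    have h3 : u₁ * f₂ (w n i) - u₂ * f₁ (w n i) = 0 := by
      by_contra h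
      exact Nat.find_min hex hij ⟨h, by omega⟩
    have hu : u₁ ≠ 0 ∨ u₂ ≠ 0 := by
      by_contra h
      push Not at h
      apply abs_pos.1 hΔ0
      rw [hΔ, h.1, h.2]
      ring
    obtain ⟨t, ht1, ht2⟩ : ∃ t : ℝ, f₁ (w n i) = t * u₁ ∧ f₂ (w n i) = t * u₂ := by
      rcases hu with h | h
      · refine ⟨f₁ (w n i) / u₁, by field_simp, ?_⟩
        field_simp
        linarith
      · refine ⟨f₂ (w n i) / u₂, ?_, by field_simp⟩
        field_simp
        linarith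
    refine ⟨i, by omega, t, ?_, ht1, ht2⟩
    obtain ⟨b, hb, k, hk⟩ := hF (w n (i + 1))
    have e1 : f₁ (w n (i + 1)) = k * f₁ b := by rw [hom_conj hf₁ hk, hf₁.2]
    have e2 : f₂ (w n (i + 1)) = k * f₂ b := by rw [hom_conj hf₂ hk, hf₂.2]
    have h4 : u₁ * f₂ (w n (i + 1)) - u₂ * f₁ (w n (i + 1)) ≠ 0 := by
      have : i + 1 = j := by omega
      rw [this]; exact h1
    have h5 : u₁ * f₂ b - u₂ * f₁ b ≠ 0 := by
      intro h
      apply h4
      rw [e1, e2]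
      have : u₁ * (k * f₂ b) - u₂ * (k * f₁ b) = k * (u₁ * f₂ b - u₂ * f₁ b) := by ring
      rw [this, h, mul_zero]
    have h6 : 0 < |u₁ * f₂ b - u₂ * f₁ b| := abs_pos.2 h5
    obtain ⟨s1, s2⟩ := hstep n i (by omega)
    have h7 : |t| * |u₁ * f₂ b - u₂ * f₁ b| ≤ D * (|f₁ b| + |f₂ b|) := by
      have e3 : t * (u₁ * f₂ b - u₂ * f₁ b) =
          (f₁ (w n i) - f₁ (w n (i + 1))) * f₂ b - (f₂ (w n i) - f₂ (w n (i + 1))) * f₁ b := by
        rw [ht1, ht2, e1, e2]; ring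
      rw [← abs_mul, e3]
      refine (abs_sub _ _).trans ?_
      rw [abs_mul, abs_mul]
      have := mul_le_mul_of_nonneg_right s1 (abs_nonneg (f₂ b))
      have := mul_le_mul_of_nonneg_right s2 (abs_nonneg (f₁ b))
      linarith
    have h8 : |t| ≤ D * (|f₁ b| + |f₂ b|) / |u₁ * f₂ b - u₂ * f₁ b| := by
      rw [le_div_iff₀ h6]; exact h7
    exact h8.trans (Finset.single_le_sum
      (f := fun b => D * (|f₁ b| + |f₂ b|) / |u₁ * f₂ b - u₂ * f₁ b|)
      (fun b _ => by positivity) hb)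
  set A : ℝ := C₀ * (|u₁| + |u₂|) + D with hA
  have hA0 : 0 ≤ A := by positivity
  obtain ⟨n, hn1⟩ := exists_nat_gt ((|u₁| + |u₂| + |v₁| + |v₂|) * A / |Δ|)
  have hn2 : (|u₁| + |u₂| + |v₁| + |v₂|) * A < n * |Δ| := by
    rwa [div_lt_iff₀ hΔ0] at hn1
  have hn0 : 0 < n := by
    rcases Nat.eq_zero_or_pos n with h | h
    · rw [h, Nat.cast_zero, zero_mul] at hn2
      have : 0 ≤ (|u₁| + |u₂| + |v₁| + |v₂|) * A := by positivity
      linarith
    · exact h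
  obtain ⟨i, hi, t, ht, ht1, ht2⟩ := hcross n hn0
  obtain ⟨l1, l2⟩ := hlow n i hi
  set p : ℝ := (n : ℝ) - i with hp
  have hin : (i : ℝ) ≤ n := by exact_mod_cast hi
  have hp0 : 0 ≤ p := by rw [hp]; linarith
  have hi0 : (0 : ℝ) ≤ i := Nat.cast_nonneg _
  have b1 : |p * u₁ + s * i * v₁| ≤ A := by
    refine l1.trans ?_
    rw [ht1, abs_mul, hA]
    have := mul_le_mul_of_nonneg_right ht (abs_nonneg u₁)
    have := mul_nonneg hC₀0 (abs_nonneg u₂)
    linarith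
  have b2 : |p * u₂ + s * i * v₂| ≤ A := by
    refine l2.trans ?_
    rw [ht2, abs_mul, hA]
    have := mul_le_mul_of_nonneg_right ht (abs_nonneg u₂)
    have := mul_nonneg hC₀0 (abs_nonneg u₁)
    linarith
  have c1 : p * |Δ| ≤ (|v₁| + |v₂|) * A := by
    have e : p * Δ = (p * u₁ + s * i * v₁) * v₂ - (p * u₂ + s * i * v₂) * v₁ := by
      rw [hΔ]; ring
    rw [← abs_of_nonneg hp0, ← abs_mul, e]
    refine (abs_sub _ _).trans ?_
    rw [abs_mul, abs_mul]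
    have := mul_le_mul_of_nonneg_right b1 (abs_nonneg v₂)
    have := mul_le_mul_of_nonneg_right b2 (abs_nonneg v₁)
    linarith
  have c2 : (i : ℝ) * |Δ| ≤ (|u₁| + |u₂|) * A := by
    have e : s * i * Δ = (p * u₂ + s * i * v₂) * u₁ - (p * u₁ + s * i * v₁) * u₂ := by
      rw [hΔ]; ring
    have e' : (i : ℝ) * |Δ| = |s * i * Δ| := by
      rw [abs_mul, abs_mul, abs_of_nonneg hi0]
      rcases hs with h | h <;> rw [h] <;> simp
    rw [e', e]
    refine (abs_sub _ _).trans ?_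
    rw [abs_mul, abs_mul]
    have := mul_le_mul_of_nonneg_right b2 (abs_nonneg u₁)
    have := mul_le_mul_of_nonneg_right b1 (abs_nonneg u₂)
    linarith
  have c3 : (n : ℝ) * |Δ| = p * |Δ| + i * |Δ| := by rw [hp]; ring
  linarith

end Vale.Agent.P216.H983
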